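import Vale.Agent.P032.Words6.H96.Mask
import Vale.Agent.P032.Words6.H46.Code
import Vale.Agent.P032.Words6.H790.FinF

/-!
# P032: the finite facts about a colour in no letter
-/

open Set

noncomputable section

namespace Vale.Agent.P032.Words6.H96

open Vale.Agent.P032.Words6.H46 Vale.Agent.P032.Words6.H790

variable {f : Fin 6 → ℕ} {x i : Fin 6}

/-- names with `i` first and `x` last -/
structure Nm (f : Fin 6 → ℕ) (x i : Fin 6) : Prop where
  inj : Function.Injective f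
  lt : ∀ j, f j < 6
  zero : f i = 0
  five : f x = 5

theorem exists_nm {x i : Fin 6} (h : i ≠ x) : ∃ f, Nm f x i := by
  have h0 : Equiv.swap i 0 x ≠ 0 := by
    intro h1
    have h2 : Equiv.swap i 0 x = Equiv.swap i 0 i := by rw [h1, Equiv.swap_apply_left]
    exact h ((Equiv.swap i 0).injective h2).symm
  refine ⟨fun j => (Equiv.swap (Equiv.swap i 0 x) 5 (Equiv.swap i 0 j)).val, ?_, fun j => Fin.isLt _,
    ?_, ?_⟩
  · intro a b hab
    exact (Equiv.swap i 0).injective ((Equiv.swap _ _).injective (Fin.ext hab))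
  · show (Equiv.swap (Equiv.swap i 0 x) 5 (Equiv.swap i 0 i)).val = 0
    rw [Equiv.swap_apply_left, Equiv.swap_apply_of_ne_of_ne h0.symm (by decide)]
    rfl
  · show (Equiv.swap (Equiv.swap i 0 x) 5 (Equiv.swap i 0 x)).val = 5
    rw [Equiv.swap_apply_left]
    rfl

theorem Nm.lt5 (N : Nm f x i) {j : Fin 6} (hj : j ≠ x) : f j < 5 := by
  have h1 := N.lt j
  have h2 : f j ≠ 5 := fun h => hj (N.inj (h.trans N.five.symm))
  omega

theorem prs_ok : ∀ a < 5, ∀ b < 5, a ≠ b → 2 ^ a ||| 2 ^ b ∈ prs := by decide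

theorem trs_ok' : ∀ a b c : Fin 5, a ≠ b → a ≠ c → b ≠ c →
    (2 ^ a.val ||| 2 ^ b.val) ||| 2 ^ c.val ∈ trs := by decide

theorem trs_ok (a : ℕ) (ha : a < 5) (b : ℕ) (hb : b < 5) (c : ℕ) (hc : c < 5) (hab : a ≠ b)
    (hac : a ≠ c) (hbc : b ≠ c) : (2 ^ a ||| 2 ^ b) ||| 2 ^ c ∈ trs :=
  trs_ok' ⟨a, ha⟩ ⟨b, hb⟩ ⟨c, hc⟩ (fun h => hab (congrArg Fin.val h))
    (fun h => hac (congrArg Fin.val h)) fun h => hbc (congrArg Fin.val h)

theorem code_or (N : Nm f x i) (s t : Set (Fin 6)) :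
    Nat.lor (code f s) (code f t) = code f (s ∪ t) := by
  have h6 : Nat.lor (code f s) (code f t) < 64 :=
    Nat.or_lt_two_pow (n := 6) (code_lt f s) (code_lt f t)
  refine ext_mask N.inj N.lt h6 (code_lt f _) fun j => ?_
  have : (Nat.lor (code f s) (code f t)).testBit (f j) =
      ((code f s).testBit (f j) || (code f t).testBit (f j)) := Nat.testBit_or _ _ _
  rw [this, Bool.or_eq_true, tb N.inj N.lt, tb N.inj N.lt, tb N.inj N.lt]
  rfl

theorem Nm.prs_ (N : Nm f x i) {s : Set (Fin 6)} (h2 : s.ncard = 2) (hx : x ∉ s) :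
    code f s ∈ prs := by
  obtain ⟨a, b, hab, rfl⟩ := Set.ncard_eq_two.1 h2
  rw [code_pair N.inj N.lt]
  exact prs_ok _ (N.lt5 fun h => hx (h ▸ Or.inl rfl)) _ (N.lt5 fun h => hx (h ▸ Or.inr rfl))
    fun h => hab (N.inj h)

theorem Nm.trs_ (N : Nm f x i) {s : Set (Fin 6)} (h3 : s.ncard = 3) (hx : x ∉ s) :
    code f s ∈ trs := by
  obtain ⟨a, b, c, hab, hac, hbc, rfl⟩ := Set.ncard_eq_three.1 h3
  have e : ({a, b, c} : Set (Fin 6)) = {a, b} ∪ {c} := by
    ext j; simp only [Set.mem_insert_iff, Set.mem_singleton_iff, Set.mem_union]; tauto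
  rw [e, ← code_or N, code_pair N.inj N.lt, code_single N.inj N.lt]
  exact trs_ok _ (N.lt5 fun h => hx (h ▸ Or.inl rfl)) _
    (N.lt5 fun h => hx (h ▸ Or.inr (Or.inl rfl))) _
    (N.lt5 fun h => hx (h ▸ Or.inr (Or.inr rfl))) (fun h => hab (N.inj h))
    (fun h => hac (N.inj h)) fun h => hbc (N.inj h)

theorem Nm.dj_ (N : Nm f x i) {s t : Set (Fin 6)} (h : Disjoint s t) :
    dj (code f s) (code f t) = true := by
  unfold H96.dj
  rw [code_and N.inj N.lt, Set.disjoint_iff_inter_eq_empty.1 h, code_empty N.inj N.lt]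
  rfl

theorem pc_two : ∀ a < 6, pc (2 ^ a) ≤ 1 := by decide

theorem pc_prs : ∀ m ∈ prs, pc m = 2 := by decide

theorem pc_trs : ∀ m ∈ trs, pc m = 3 := by decide

theorem Nm.okp_ (N : Nm f x i) {s t : Set (Fin 6)} (hs : x ∉ s) (ht : x ∉ t)
    (h1 : s.ncard = 2 ∨ s.ncard = 3) (h2 : t.ncard = 2 ∨ t.ncard = 3)
    (h3 : s.ncard = 2 ∨ t.ncard = 2 → Disjoint s t) (h4 : (s ∩ t).ncard ≤ 1) :
    okp (code f s) (code f t) = true := by
  by_cases hp : s.ncard = 2 ∨ t.ncard = 2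
  · have h5 := N.dj_ (h3 hp)
    unfold H96.dj at h5
    unfold H96.okp
    rw [h5]
    have h6 : Nat.ble (pc (Nat.land (code f s) (code f t))) 1 = true := by
      rw [Nat.eq_of_beq_eq_true h5]; rfl
    rw [h6]
    cases (Nat.beq (pc (code f s)) 2 || Nat.beq (pc (code f t)) 2) <;> rfl
  · push Not at hp
    have a1 := pc_trs _ (N.trs_ (h1.resolve_left hp.1) hs)
    have a2 := pc_trs _ (N.trs_ (h2.resolve_left hp.2) ht)
    unfold H96.okp
    rw [a1, a2]
    show Nat.ble (pc (Nat.land (code f s) (code f t))) 1 = true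
    rw [Nat.ble_eq, code_and N.inj N.lt]
    rcases Set.eq_empty_or_nonempty (s ∩ t) with h5 | ⟨a, ha⟩
    · rw [h5, code_empty N.inj N.lt]; decide
    · have h6 : s ∩ t = {a} := by
        refine Set.Subset.antisymm (fun b hb => ?_) fun b hb => by
          rw [Set.mem_singleton_iff.1 hb]; exact ha
        exact (Set.ncard_le_one (Set.toFinite _)).1 h4 b hb a ha
      rw [h6, code_single N.inj N.lt]
      exact pc_two _ (N.lt a)

theorem Nm.n30_ (N : Nm f x i) {s t : Set (Fin 6)}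
    (h : ∃ j, j ≠ x ∧ j ≠ i ∧ j ∉ s ∧ j ∉ t) : n30 (code f s) (code f t) = true := by
  obtain ⟨j, h1, h2, h3, h4⟩ := h
  unfold H96.n30
  rw [Bool.not_eq_true', ← Bool.not_eq_true, Nat.beq_eq]
  intro h5
  have h6 : (Nat.lor (code f s) (code f t)).testBit (f j) = true := by
    rw [h5]
    have : ∀ a < 5, a ≠ 0 → Nat.testBit 30 a = true := by decide
    exact this _ (N.lt5 h1) fun h => h2 (N.inj (h.trans N.zero.symm))
  rw [code_or N, tb N.inj N.lt] at h6
  exact h6.elim h3 h4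

/-- the mask word -/
def wd (f : Fin 6 → ℕ) (h : Fin 6 → Set (Fin 6)) : W6 :=
  ⟨code f (h 0), code f (h 1), code f (h 2), code f (h 3), code f (h 4), code f (h 5)⟩

theorem mem_wds {t0 t1 t2 t3 t4 t5 h0 h1 h2 h3 h4 h5 : ℕ} (m0 : h0 ∈ sub2 t0) (m1 : h1 ∈ sub2 t1)
    (m2 : h2 ∈ sub2 t2) (m3 : h3 ∈ sub2 t3) (m4 : h4 ∈ sub2 t4) (m5 : h5 ∈ sub2 t5)
    (d0 : dj h0 h1 = true) (d1 : dj h1 h2 = true) (d2 : dj h2 h3 = true) (d3 : dj h3 h4 = true)
    (d4 : dj h4 h5 = true) (d5 : dj h5 h0 = true) (o0 : n30 h0 h3 = true) (o1 : n30 h1 h4 = true)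
    (o2 : n30 h2 h5 = true) : W6.mk h0 h1 h2 h3 h4 h5 ∈ wds t0 t1 t2 t3 t4 t5 := by
  unfold wds
  rw [List.mem_flatMap]
  refine ⟨h0, m0, ?_⟩
  rw [List.mem_flatMap]
  refine ⟨h1, m1, ?_⟩
  rw [d0, cond_true, List.mem_flatMap]
  refine ⟨h2, m2, ?_⟩
  rw [d1, cond_true, List.mem_flatMap]
  refine ⟨h3, m3, ?_⟩
  rw [d2, o0, Bool.and_self, cond_true, List.mem_flatMap]
  refine ⟨h4, m4, ?_⟩
  rw [d3, o1, Bool.and_self, cond_true, List.mem_flatMap]
  refine ⟨h5, m5, ?_⟩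
  rw [d4, d5, o2]
  exact List.mem_singleton.2 rfl

theorem Nm.sub2_ (N : Nm f x i) {t h : Set (Fin 6)} (h2 : h.ncard = 2) (hx : x ∉ t) (hs : h ⊆ t) :
    code f h ∈ sub2 (code f t) := by
  refine List.mem_filter.2 ⟨N.prs_ h2 fun h => hx (hs h), ?_⟩
  rw [code_and N.inj N.lt, Set.inter_eq_left.2 hs]
  exact Nat.beq_refl _

theorem Nm.mem (N : Nm f x i) {t h : Fin 6 → Set (Fin 6)} (B : Bx x t) (L : Lg x i t h) :
    wd f h ∈ wds (code f (t 0)) (code f (t 1)) (code f (t 2)) (code f (t 3)) (code f (t 4))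
      (code f (t 5)) :=
  mem_wds (N.sub2_ (L 0).1 (B 0).1 (L 0).2.1) (N.sub2_ (L 1).1 (B 1).1 (L 1).2.1)
    (N.sub2_ (L 2).1 (B 2).1 (L 2).2.1) (N.sub2_ (L 3).1 (B 3).1 (L 3).2.1)
    (N.sub2_ (L 4).1 (B 4).1 (L 4).2.1) (N.sub2_ (L 5).1 (B 5).1 (L 5).2.1)
    (N.dj_ (L 0).2.2.1) (N.dj_ (L 1).2.2.1) (N.dj_ (L 2).2.2.1) (N.dj_ (L 3).2.2.1)
    (N.dj_ (L 4).2.2.1) (N.dj_ (L 5).2.2.1) (N.n30_ (L 0).2.2.2) (N.n30_ (L 1).2.2.2)
    (N.n30_ (L 2).2.2.2)

theorem Nm.pal (N : Nm f x i) {t : Fin 6 → Set (Fin 6)} (B : Bx x t) (k : Fin 6) :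
    code f (t k) ∈ pals := by
  rcases (B k).2.1 with h | h
  · exact List.mem_append.2 (Or.inl (N.prs_ h (B k).1))
  · exact List.mem_append.2 (Or.inr (N.trs_ h (B k).1))

theorem Nm.nb (N : Nm f x i) {t : Fin 6 → Set (Fin 6)} (B : Bx x t) (k : Fin 6) :
    okp (code f (t k)) (code f (t (k + 1))) = true :=
  N.okp_ (B k).1 (B (k + 1)).1 (B k).2.1 (B (k + 1)).2.1 (B k).2.2.1 (B k).2.2.2

theorem Nm.box (N : Nm f x i) {t : Fin 6 → Set (Fin 6)} (B : Bx x t) :
    chk2 (code f (t 0)) (code f (t 1)) (code f (t 2)) (code f (t 3)) (code f (t 4))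
      (code f (t 5)) (wds (code f (t 0)) (code f (t 1)) (code f (t 2)) (code f (t 3))
      (code f (t 4)) (code f (t 5))) = true := by
  have h0 := List.all_eq_true.1 chk_all (code f (t 0)) (N.pal B 0)
  unfold chk at h0
  have h1 := List.all_eq_true.1 h0 (code f (t 1)) (List.mem_filter.2 ⟨N.pal B 1, N.nb B 0⟩)
  have h2 := List.all_eq_true.1 h1 (code f (t 2)) (List.mem_filter.2 ⟨N.pal B 2, N.nb B 1⟩)
  have h3 := List.all_eq_true.1 h2 (code f (t 3)) (List.mem_filter.2 ⟨N.pal B 3, N.nb B 2⟩)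
  have h4 := List.all_eq_true.1 h3 (code f (t 4)) (List.mem_filter.2 ⟨N.pal B 4, N.nb B 3⟩)
  have h5 := List.all_eq_true.1 h4 (code f (t 5)) (List.mem_filter.2 ⟨N.pal B 5, N.nb B 4⟩)
  have h6 : okp (code f (t 5)) (code f (t 0)) = true := N.nb B 5
  rw [h6, Bool.not_true, Bool.false_or] at h5
  exact h5

theorem same_of {L : List W6} (h : same L = true) {w v : W6} (hw : w ∈ L) (hv : v ∈ L) :
    cl w = cl v := by
  cases L with
  | nil => exact absurd hw (List.not_mem_nil)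
  | cons a L =>
    have h1 : ∀ v ∈ L, cl v = cl a := fun v hv => by
      have h2 : (L.all fun v => Nat.beq (cl a) (cl v)) = true := h
      exact (Nat.eq_of_beq_eq_true (List.all_eq_true.1 h2 v hv)).symm
    have h3 : ∀ v ∈ a :: L, cl v = cl a := fun v hv => by
      rcases List.mem_cons.1 hv with hv | hv
      · rw [hv]
      · exact h1 v hv
    exact (h3 w hw).trans (h3 v hv).symm

theorem Nm.cl_eq (N : Nm f x i) (h : Fin 6 → Set (Fin 6)) : cl (wd f h) = cls i h := by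
  classical
  have b : ∀ k, (code f (h k)).testBit 0 = decide (i ∈ h k) := by
    intro k
    have h1 := tb N.inj N.lt (h k) i
    rw [N.zero] at h1
    by_cases h2 : i ∈ h k
    · rw [h1.2 h2, decide_eq_true h2]
    · rw [decide_eq_false h2, ← Bool.not_eq_true, h1]
      exact h2
  have e1 : (∀ k : Fin 6, i ∈ h k → k.val % 2 = 0) ↔ (i ∉ h 1 ∧ i ∉ h 3 ∧ i ∉ h 5) := by
    constructor
    · intro H
      exact ⟨fun h1 => absurd (H 1 h1) (by decide), fun h1 => absurd (H 3 h1) (by decide),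
        fun h1 => absurd (H 5 h1) (by decide)⟩
    · rintro ⟨a1, a2, a3⟩ k hk
      fin_cases k
      · rfl
      · exact absurd hk a1
      · rfl
      · exact absurd hk a2
      · rfl
      · exact absurd hk a3
  have e2 : (∀ k : Fin 6, i ∈ h k → k.val % 2 = 1) ↔ (i ∉ h 0 ∧ i ∉ h 2 ∧ i ∉ h 4) := by
    constructor
    · intro H
      exact ⟨fun h1 => absurd (H 0 h1) (by decide), fun h1 => absurd (H 2 h1) (by decide),
        fun h1 => absurd (H 4 h1) (by decide)⟩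
    · rintro ⟨a1, a2, a3⟩ k hk
      fin_cases k
      · exact absurd hk a1
      · rfl
      · exact absurd hk a2
      · rfl
      · exact absurd hk a3
      · rfl
  unfold cl cls wd
  simp only [b, e1, e2]
  by_cases c0 : i ∈ h 0 <;> by_cases c1 : i ∈ h 1 <;> by_cases c2 : i ∈ h 2 <;>
    by_cases c3 : i ∈ h 3 <;> by_cases c4 : i ∈ h 4 <;> by_cases c5 : i ∈ h 5 <;>
    simp [c0, c1, c2, c3, c4, c5]

theorem f1 (h : i ≠ x) : F1 x i (cls i) := by
  intro t a b B ⟨k, hk⟩ La Lb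
  obtain ⟨f, N⟩ := exists_nm h
  rw [← N.cl_eq, ← N.cl_eq]
  have h1 := N.box B
  unfold chk2 at h1
  rw [Bool.or_eq_true, Bool.and_eq_true] at h1
  rcases h1 with h1 | ⟨h1, -⟩
  · exact same_of h1 (N.mem B La) (N.mem B Lb)
  · exfalso
    have h2 := pc_prs _ (N.prs_ hk (B k).1)
    unfold isT at h1
    simp only [Bool.and_eq_true, Nat.beq_eq] at h1
    obtain ⟨⟨⟨⟨⟨a0, a1⟩, a2⟩, a3⟩, a4⟩, a5⟩ := h1
    fin_cases k
    · exact absurd (a0.symm.trans h2) (by decide)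
    · exact absurd (a1.symm.trans h2) (by decide)
    · exact absurd (a2.symm.trans h2) (by decide)
    · exact absurd (a3.symm.trans h2) (by decide)
    · exact absurd (a4.symm.trans h2) (by decide)
    · exact absurd (a5.symm.trans h2) (by decide)

theorem sub31 : ∀ p ∈ prs, p ∈ sub2 31 := by decide

theorem rt (h : i ≠ x) : Rt x i (cls i) := by
  intro t a B La
  obtain ⟨f, N⟩ := exists_nm h
  have hp : ∀ k, code f (a k) ∈ sub2 31 := fun k =>
    sub31 _ (N.prs_ (La k).1 fun h => (B k).1 ((La k).2.1 h))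
  have h1 := List.all_eq_true.1 rot_all (wd f a) (mem_wds (hp 0) (hp 1) (hp 2) (hp 3) (hp 4) (hp 5)
    (N.dj_ (La 0).2.2.1) (N.dj_ (La 1).2.2.1) (N.dj_ (La 2).2.2.1) (N.dj_ (La 3).2.2.1)
    (N.dj_ (La 4).2.2.1) (N.dj_ (La 5).2.2.1) (N.n30_ (La 0).2.2.2) (N.n30_ (La 1).2.2.2)
    (N.n30_ (La 2).2.2.2))
  unfold rotB at h1
  rw [Bool.not_eq_true', ← Bool.not_eq_true, Nat.beq_eq] at h1
  intro h2
  apply h1
  rw [N.cl_eq a, ← h2, ← N.cl_eq]
  rfl

theorem rscd_ok : ∀ y ∈ rscd, ∃ r s c d : Fin 5,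
    y = (2 ^ r.val, 2 ^ s.val, 2 ^ c.val, 2 ^ d.val) ∧
      ∀ n : Fin 5, n = 0 ∨ n = r ∨ n = s ∨ n = c ∨ n = d := by decide +kernel

theorem cuts_ok : ∀ y ∈ cuts, ∃ p q r s t : Fin 5,
    y = (2 ^ p.val, 2 ^ q.val, 2 ^ r.val, 2 ^ s.val, 2 ^ t.val) ∧ p ≠ r ∧ p ≠ s ∧ p ≠ t ∧ q ≠ r ∧
      q ≠ s ∧ q ≠ t ∧ ∀ n : Fin 5, n = p ∨ n = q ∨ n = r ∨ n = s ∨ n = t := by
  intro y hy
  simp only [cuts, List.mem_cons, List.not_mem_nil, or_false] at hy
  rcases hy with rfl | rfl | rfl | rfl | rfl | rfl | rfl | rfl | rfl | rfl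
  · exact ⟨0, 1, 2, 3, 4, rfl, by decide⟩
  · exact ⟨0, 2, 1, 3, 4, rfl, by decide⟩
  · exact ⟨0, 3, 1, 2, 4, rfl, by decide⟩
  · exact ⟨0, 4, 1, 2, 3, rfl, by decide⟩
  · exact ⟨1, 2, 0, 3, 4, rfl, by decide⟩
  · exact ⟨1, 3, 0, 2, 4, rfl, by decide⟩
  · exact ⟨1, 4, 0, 2, 3, rfl, by decide⟩
  · exact ⟨2, 3, 0, 1, 4, rfl, by decide⟩
  · exact ⟨2, 4, 0, 1, 3, rfl, by decide⟩
  · exact ⟨3, 4, 0, 1, 2, rfl, by decide⟩

theorem Nm.col (N : Nm f x i) (n : Fin 5) : ∃ j, j ≠ x ∧ f j = n.val := by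
  have hn := n.isLt
  obtain ⟨j, hj⟩ := ex_f N.inj N.lt (j := n.val) (by omega)
  refine ⟨j, fun h => ?_, hj⟩
  rw [h, N.five] at hj
  omega

theorem Nm.mem6_ (N : Nm f x i) {h g : Fin 6 → Set (Fin 6)} {a b : Fin 6}
    (H : (mem6 (Nat.lor (2 ^ f a) (2 ^ f b)) (wd f h) ||
      mem6 (Nat.lor (2 ^ f a) (2 ^ f b)) (wd f g)) = true) :
    ∃ k, h k = {a, b} ∨ g k = {a, b} := by
  have key : ∀ {h : Fin 6 → Set (Fin 6)}, mem6 (Nat.lor (2 ^ f a) (2 ^ f b)) (wd f h) = true →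
      ∃ k, h k = {a, b} := by
    intro h H
    unfold mem6 wd at H
    simp only [Bool.or_eq_true, Nat.beq_eq] at H
    have e : ∀ k, code f (h k) = Nat.lor (2 ^ f a) (2 ^ f b) → h k = {a, b} := fun k hk =>
      code_inj N.inj N.lt (hk.trans (code_pair N.inj N.lt a b).symm)
    rcases H with ((((H | H) | H) | H) | H) | H
    exacts [⟨0, e 0 H⟩, ⟨1, e 1 H⟩, ⟨2, e 2 H⟩, ⟨3, e 3 H⟩, ⟨4, e 4 H⟩, ⟨5, e 5 H⟩]
  rw [Bool.or_eq_true] at H
  rcases H with H | H
  · obtain ⟨k, hk⟩ := key H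
    exact ⟨k, Or.inl hk⟩
  · obtain ⟨k, hk⟩ := key H
    exact ⟨k, Or.inr hk⟩

theorem Nm.cut (N : Nm f x i) {h g : Fin 6 → Set (Fin 6)}
    (H : cutB (wd f h) (wd f g) = true) :
    ∃ A B : Set (Fin 6), A.Nonempty ∧ B.Nonempty ∧ A.ncard ≤ 2 ∧ Disjoint A B ∧ x ∉ A ∧
      x ∉ B ∧ (∀ j, j = x ∨ j ∈ A ∨ j ∈ B) ∧
      ∀ a ∈ A, ∀ b ∈ B, ∃ k, h k = {a, b} ∨ g k = {a, b} := by
  unfold cutB at H
  obtain ⟨y, hy, H⟩ := List.any_eq_true.1 H
  obtain ⟨p, q, r, s, t, rfl, npr, nps, npt, nqr, nqs, nqt, hex⟩ := cuts_ok y hy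
  obtain ⟨P, hPx, hP⟩ := N.col p
  obtain ⟨Q, hQx, hQ⟩ := N.col q
  obtain ⟨R, hRx, hR⟩ := N.col r
  obtain ⟨S, hSx, hS⟩ := N.col s
  obtain ⟨V, hVx, hV⟩ := N.col t
  simp only [Bool.and_eq_true] at H
  obtain ⟨⟨⟨⟨⟨m1, m2⟩, m3⟩, m4⟩, m5⟩, m6⟩ := H
  rw [← hP, ← hR] at m1
  rw [← hP, ← hS] at m2
  rw [← hP, ← hV] at m3
  rw [← hQ, ← hR] at m4
  rw [← hQ, ← hS] at m5
  rw [← hQ, ← hV] at m6
  have ne : ∀ {a b : Fin 6} {m n : Fin 5}, f a = m.val → f b = n.val → m ≠ n → a ≠ b := by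
    intro a b m n ha hb hmn hab
    apply hmn
    apply Fin.ext
    rw [← ha, ← hb, hab]
  refine ⟨{P, Q}, {R, S, V}, ⟨P, Or.inl rfl⟩, ⟨R, Or.inl rfl⟩, (Set.ncard_insert_le _ _).trans (by rw [Set.ncard_singleton]), ?_, ?_, ?_,
    ?_, ?_⟩
  · rw [Set.disjoint_left]
    rintro j (rfl | rfl) (h | h | h)
    · exact ne hP hR npr h
    · exact ne hP hS nps h
    · exact ne hP hV npt h
    · exact ne hQ hR nqr h
    · exact ne hQ hS nqs h
    · exact ne hQ hV nqt h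
  · rintro (h | h)
    · exact hPx h.symm
    · exact hQx h.symm
  · rintro (h | h | h)
    · exact hRx h.symm
    · exact hSx h.symm
    · exact hVx h.symm
  · intro j
    by_cases hj : j = x
    · exact Or.inl hj
    right
    have key : ∀ {n : Fin 5} {J : Fin 6}, f J = n.val → (⟨f j, N.lt5 hj⟩ : Fin 5) = n → j = J := by
      intro n J hJ h
      exact N.inj ((congrArg Fin.val h).trans hJ.symm)
    rcases hex ⟨f j, N.lt5 hj⟩ with h | h | h | h | h
    · exact Or.inl (Or.inl (key hP h))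
    · exact Or.inl (Or.inr (key hQ h))
    · exact Or.inr (Or.inl (key hR h))
    · exact Or.inr (Or.inr (Or.inl (key hS h)))
    · exact Or.inr (Or.inr (Or.inr (key hV h)))
  · rintro a (rfl | rfl) b (rfl | rfl | rfl)
    · exact N.mem6_ m1
    · exact N.mem6_ m2
    · exact N.mem6_ m3
    · exact N.mem6_ m4
    · exact N.mem6_ m5
    · exact N.mem6_ m6

theorem Nm.trip (N : Nm f x i) {s : Set (Fin 6)} {a c : Fin 6}
    (h : code f s = Nat.lor (Nat.lor (2 ^ f a) 1) (2 ^ f c)) : s = {a, i, c} := by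
  apply code_inj N.inj N.lt
  have e : ({a, i, c} : Set (Fin 6)) = {a, i} ∪ {c} := by
    ext j; simp only [Set.mem_insert_iff, Set.mem_singleton_iff, Set.mem_union]; tauto
  rw [h, e, ← code_or N, code_pair N.inj N.lt, code_single N.inj N.lt, N.zero]
  rfl

theorem Nm.pr (N : Nm f x i) {s : Set (Fin 6)} {a c : Fin 6}
    (h : code f s = Nat.lor (2 ^ f a) (2 ^ f c)) : s = {a, c} :=
  code_inj N.inj N.lt (h.trans (code_pair N.inj N.lt a c).symm)

theorem Nm.in_ (N : Nm f x i) {s : Set (Fin 6)} {a : Fin 6}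
    (h : Nat.land (code f s) (2 ^ f a) = 2 ^ f a) : a ∈ s := by
  rw [← code_single N.inj N.lt a, code_and N.inj N.lt] at h
  have h1 := code_inj N.inj N.lt h
  have h2 : a ∈ s ∩ {a} := by rw [h1]; rfl
  exact h2.1

theorem Nm.bl (N : Nm f x i) {t h g : Fin 6 → Set (Fin 6)} (B : Bx x t) (Lh : Lg x i t h)
    (Lk : Lg x i t g) (k : Fin 6) (p q : W6 → ℕ) (hp : ∀ h, p (wd f h) = code f (h k))
    (hq : ∀ h, q (wd f h) = code f (h (k + 3)))
    (H : blkB (code f (t k)) (code f (t (k + 3))) p q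
      (wds (code f (t 0)) (code f (t 1)) (code f (t 2)) (code f (t 3)) (code f (t 4))
      (code f (t 5))) (wd f h) (wd f g) = true) : BL x i t h g k := by
  unfold blkB at H
  obtain ⟨y, hy, H⟩ := List.any_eq_true.1 H
  obtain ⟨r, s, c, d, rfl, hex⟩ := rscd_ok y hy
  obtain ⟨R, hRx, hR⟩ := N.col r
  obtain ⟨S, hSx, hS⟩ := N.col s
  obtain ⟨C, hCx, hC⟩ := N.col c
  obtain ⟨D, hDx, hD⟩ := N.col d
  rw [Bool.and_eq_true, Bool.and_eq_true, Bool.and_eq_true] at H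
  obtain ⟨⟨⟨a1, a2⟩, a3⟩, a4⟩ := H
  have a1 := Nat.eq_of_beq_eq_true a1
  have a2 := Nat.eq_of_beq_eq_true a2
  simp only [] at a1 a2 a3 a4
  rw [← hR, ← hD] at a1
  rw [← hS, ← hC] at a2
  rw [← hC, ← hD] at a3
  rw [← hR, ← hS, ← hC, ← hD] at a4
  rw [List.all_eq_true] at a4
  have key : ∀ w, Lg x i t w → R ∈ w k ∧ S ∈ w (k + 3) := by
    intro w Lw
    have h1 := a4 _ (N.mem B Lw)
    rw [Bool.and_eq_true, Bool.and_eq_true, Bool.and_eq_true] at h1
    obtain ⟨⟨⟨b1, b2⟩, -⟩, -⟩ := h1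
    rw [hp] at b1
    rw [hq] at b2
    exact ⟨N.in_ (Nat.eq_of_beq_eq_true b1), N.in_ (Nat.eq_of_beq_eq_true b2)⟩
  have k1 := a4 _ (N.mem B Lh)
  have k2 := a4 _ (N.mem B Lk)
  have k1 := (Bool.and_eq_true_iff.1 (Bool.and_eq_true_iff.1 k1).1).2
  have k2 := (Bool.and_eq_true_iff.1 k2).2
  rw [Nat.beq_refl, cond_true, Bool.and_eq_true, hp, hq] at k1
  rw [Nat.beq_refl, cond_true, Bool.and_eq_true, hp, hq] at k2
  obtain ⟨b3, b4⟩ := k1
  obtain ⟨b5, b6⟩ := k2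
  refine ⟨R, S, C, D, fun j => ?_, (N.trip a1).subset, (N.trip a2).subset,
    N.pr (Nat.eq_of_beq_eq_true b3), ?_, ?_, N.pr (Nat.eq_of_beq_eq_true b6), N.mem6_ a3, key⟩
  · by_cases hj : j = x
    · exact Or.inl hj
    right
    have key : ∀ {n : Fin 5} {J : Fin 6}, f J = n.val → (⟨f j, N.lt5 hj⟩ : Fin 5) = n → j = J := by
      intro n J hJ h
      exact N.inj ((congrArg Fin.val h).trans hJ.symm)
    rcases hex ⟨f j, N.lt5 hj⟩ with h | h | h | h | h
    · exact Or.inl (key (n := 0) N.zero h)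
    · exact Or.inr (Or.inl (key hR h))
    · exact Or.inr (Or.inr (Or.inl (key hS h)))
    · exact Or.inr (Or.inr (Or.inr (Or.inl (key hC h))))
    · exact Or.inr (Or.inr (Or.inr (Or.inr (key hD h))))
  · apply N.pr
    rw [N.zero]
    exact Nat.eq_of_beq_eq_true b4
  · apply N.pr
    rw [N.zero]
    exact Nat.eq_of_beq_eq_true b5

theorem f2 (hix : i ≠ x) : F2 x i (cls i) := by
  intro t h g B h3 Lh Lk hc
  obtain ⟨f, N⟩ := exists_nm hix
  rw [← N.cl_eq, ← N.cl_eq] at hc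
  have h1 := N.box B
  unfold chk2 at h1
  rw [Bool.or_eq_true, Bool.and_eq_true, Bool.or_eq_true] at h1
  rcases h1 with h1 | ⟨-, h1 | h1⟩
  · exact absurd (same_of h1 (N.mem B Lh) (N.mem B Lk)) hc
  · left
    unfold altB at h1
    simp only [Bool.and_eq_true, Nat.beq_eq] at h1
    obtain ⟨⟨⟨⟨e1, e2⟩, e3⟩, e4⟩, e5⟩ := h1
    have e1 := code_inj N.inj N.lt e1
    have e2 := code_inj N.inj N.lt e2
    have e3 := code_inj N.inj N.lt e3
    have e4 := code_inj N.inj N.lt e4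
    refine ⟨t 0, t 1, h3 0, h3 1, (B 0).1, (B 1).1, ?_, ?_⟩
    · apply code_inj N.inj N.lt
      rw [← code_and N.inj N.lt, e5, code_single N.inj N.lt, N.zero]
      rfl
    · intro k
      fin_cases k
      · rfl
      · rfl
      · exact e1.symm
      · exact e3.symm
      · exact (e1.trans e2).symm
      · exact (e3.trans e4).symm
  · have h2 := List.all_eq_true.1 (List.all_eq_true.1 h1 _ (N.mem B Lh)) _ (N.mem B Lk)
    rw [Bool.or_eq_true, Bool.or_eq_true] at h2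
    rcases h2 with (h2 | h2) | h2
    · exact absurd (Nat.eq_of_beq_eq_true h2) hc
    · exact Or.inr (Or.inl (N.cut h2))
    · right; right
      have l0 : ln0 (code f (t 0)) (code f (t 3)) (wds (code f (t 0)) (code f (t 1))
          (code f (t 2)) (code f (t 3)) (code f (t 4)) (code f (t 5))) (wd f h) (wd f g) = true →
          BL x i t h g 0 ∨ BL x i t h g 3 := by
        intro H
        unfold ln0 at H
        rw [Bool.or_eq_true] at H
        rcases H with H | H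
        · exact Or.inl (N.bl B Lh Lk 0 W6.a W6.d (fun _ => rfl) (fun _ => rfl) H)
        · exact Or.inr (N.bl B Lh Lk 3 W6.d W6.a (fun _ => rfl) (fun _ => rfl) H)
      have l1 : ln1 (code f (t 1)) (code f (t 4)) (wds (code f (t 0)) (code f (t 1))
          (code f (t 2)) (code f (t 3)) (code f (t 4)) (code f (t 5))) (wd f h) (wd f g) = true →
          BL x i t h g 1 ∨ BL x i t h g 4 := by
        intro H
        unfold ln1 at H
        rw [Bool.or_eq_true] at H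
        rcases H with H | H
        · exact Or.inl (N.bl B Lh Lk 1 W6.b W6.e (fun _ => rfl) (fun _ => rfl) H)
        · exact Or.inr (N.bl B Lh Lk 4 W6.e W6.b (fun _ => rfl) (fun _ => rfl) H)
      have l2 : ln2 (code f (t 2)) (code f (t 5)) (wds (code f (t 0)) (code f (t 1))
          (code f (t 2)) (code f (t 3)) (code f (t 4)) (code f (t 5))) (wd f h) (wd f g) = true →
          BL x i t h g 2 ∨ BL x i t h g 5 := by
        intro H
        unfold ln2 at H
        rw [Bool.or_eq_true] at H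
        rcases H with H | H
        · exact Or.inl (N.bl B Lh Lk 2 W6.c W6.f (fun _ => rfl) (fun _ => rfl) H)
        · exact Or.inr (N.bl B Lh Lk 5 W6.f W6.c (fun _ => rfl) (fun _ => rfl) H)
      have fin : ∀ {k k' : Fin 6}, BL x i t h g k → BL x i t h g k' → k' ≠ k → k' ≠ k + 3 →
          ∃ k k' : Fin 6, k' ≠ k ∧ k' ≠ k + 3 ∧ (BL x i t h g k ∨ BL x i t g h k) ∧
            (BL x i t h g k' ∨ BL x i t g h k') := fun b b' n n' =>
        ⟨_, _, n, n', Or.inl b, Or.inl b'⟩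
      unfold two at h2
      cases c0 : ln0 (code f (t 0)) (code f (t 3)) (wds (code f (t 0)) (code f (t 1))
          (code f (t 2)) (code f (t 3)) (code f (t 4)) (code f (t 5))) (wd f h) (wd f g) with
      | true =>
        rw [c0, cond_true, Bool.or_eq_true] at h2
        rcases l0 c0 with b | b <;> rcases h2 with h2 | h2
        · rcases l1 h2 with b' | b'
          · exact fin b b' (by decide) (by decide)
          · exact fin b b' (by decide) (by decide)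
        · rcases l2 h2 with b' | b'
          · exact fin b b' (by decide) (by decide)
          · exact fin b b' (by decide) (by decide)
        · rcases l1 h2 with b' | b'
          · exact fin b b' (by decide) (by decide)
          · exact fin b b' (by decide) (by decide)
        · rcases l2 h2 with b' | b'
          · exact fin b b' (by decide) (by decide)
          · exact fin b b' (by decide) (by decide)
      | false =>
        rw [c0, cond_false, Bool.and_eq_true] at h2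
        obtain ⟨h2, h4⟩ := h2
        rcases l1 h2 with b | b <;> rcases l2 h4 with b' | b'
        · exact fin b b' (by decide) (by decide)
        · exact fin b b' (by decide) (by decide)
        · exact fin b b' (by decide) (by decide)
        · exact fin b b' (by decide) (by decide)

/-- **The three finite facts.** -/
theorem finF : FinF := fun _ _ h => ⟨f1 h, rt h, f2 h⟩

end Vale.Agent.P032.Words6.H96
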